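import Vale.Agent.P073.H655.RowsM
import Vale.Agent.P073.H655.SameT
import Vale.Agent.P073.HB.Acl2
import Vale.Agent.P073.RT.Rows
import Vale.Agent.P073.RT.H712.ZRows
import Mathlib.MeasureTheory.Measure.Hausdorff
import Mathlib.MeasureTheory.Integral.MeanInequalities

/-!
# P073, row Z3: sets of sigma-finite `(2p-3)/(p-1)`-dimensional measure have small slices
-/

namespace Vale.Agent.P073.H146

open MeasureTheory Set Filter Topology Metric Vale.Agent.P073.AB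
open Vale.Agent.P073.St (V Mat euc)
open Vale.Agent.P073.SQ (ev cube)
open Vale.Agent.P073.RT (SmallSlices)
open Vale.Agent.P073.H655
open scoped ContDiff ENNReal

/-- **Row Z3** -/
def SpecDim : Prop := ∀ (p : ℝ) (Ω K : Set V) (f : V → V) (F : V → Mat) (Kn : ℕ → Set V), 2 < p →
  St.IsBoundedDomain Ω → St.IsSobolev p Ω f F → ContinuousOn f Ω → K ⊆ Ω → K ⊆ ⋃ n, Kn n →
  (∀ n, μH[(2 * p - 3) / (p - 1)] (Kn n) ≠ ⊤) → SmallSlices K f

/-- **Row Z3a**: the oscillation on the slices of a cube, integrated over the slices -/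
def SpecSliceOsc : Prop := ∀ p : ℝ, 2 < p → ∃ C : ℝ≥0∞, C ≠ ⊤ ∧
  ∀ (Ω : Set V) (f : V → V) (F : V → (V →L[ℝ] V)), IsOpen Ω → ContinuousOn f Ω →
  LocallyIntegrableOn F Ω volume → HB.WeakDeriv volume Ω f F →
  ∀ (k : Fin 3) (c : V) (r : ℝ), 0 < r → closedBall c r ⊆ Ω →
  ∃ U : ℝ → ℝ≥0∞, Measurable U ∧
    (∀ x ∈ closedBall c r, ∀ y ∈ closedBall c r, x k = y k → ‖f x - f y‖ₑ ≤ U (x k)) ∧
    ∫⁻ t, U t ≤ C * ENNReal.ofReal (r ^ (2 - 3 / p)) *
      (∫⁻ z in closedBall c r, ‖F z‖ₑ ^ p) ^ (1 / p)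

/-- Hölder's inequality for sums -/
theorem tsum_holder {p : ℝ} (hp : 2 < p) {ι : Type} (a b : ι → ℝ≥0∞) :
    ∑' i, a i ^ (2 - 3 / p) * b i ^ (1 / p) ≤
      (∑' i, a i ^ ((2 * p - 3) / (p - 1))) ^ ((p - 1) / p) * (∑' i, b i) ^ (1 / p) := by
  have hp0 : 0 < p := by linarith
  have hp1 : 0 < p - 1 := by linarith
  let _ : MeasurableSpace ι := ⊤
  have hc : (p / (p - 1)).HolderConjugate p := by
    rw [Real.holderConjugate_iff]
    refine ⟨by rw [lt_div_iff₀ hp1]; linarith, ?_⟩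
    field_simp
    ring
  have h := ENNReal.lintegral_mul_le_Lp_mul_Lq (Measure.count : Measure ι) hc
    (f := fun i => a i ^ (2 - 3 / p)) (g := fun i => b i ^ (1 / p))
    measurable_from_top.aemeasurable measurable_from_top.aemeasurable
  simp only [Pi.mul_apply, lintegral_count] at h
  refine h.trans (le_of_eq ?_)
  have e1 : ∀ i, (a i ^ (2 - 3 / p)) ^ (p / (p - 1)) = a i ^ ((2 * p - 3) / (p - 1)) := by
    intro i
    rw [← ENNReal.rpow_mul]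
    congr 1
    field_simp
  have e2 : ∀ i, (b i ^ (1 / p)) ^ p = b i := by
    intro i
    rw [← ENNReal.rpow_mul, one_div_mul_cancel hp0.ne', ENNReal.rpow_one]
  simp_rw [e1, e2]
  congr 2
  field_simp

/-- the estimate in a neighbourhood of the set -/
theorem image_le (hC : SpecCover) {p : ℝ} (hp : 2 < p) {CM : ℝ≥0∞} {Ω K : Set V} {f : V → V}
    {G : V → (V →L[ℝ] V)} {k : Fin 3}
    (hM : ∀ (c : V) (r : ℝ), 0 < r → closedBall c r ⊆ Ω →
      ∃ U : ℝ → ℝ≥0∞, Measurable U ∧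
        (∀ x ∈ closedBall c r, ∀ y ∈ closedBall c r, x k = y k → ‖f x - f y‖ₑ ≤ U (x k)) ∧
        ∫⁻ t, U t ≤ CM * ENNReal.ofReal (r ^ (2 - 3 / p)) *
          (∫⁻ z in closedBall c r, ‖G z‖ₑ ^ p) ^ (1 / p))
    (hfin : μH[(2 * p - 3) / (p - 1)] K < ⊤) (i : Fin 3) :
    ∃ C : ℝ≥0∞, C ≠ ⊤ ∧ ∀ N : Set V, IsOpen N → K ⊆ N → N ⊆ Ω →
      ∃ W : ℝ → ℝ≥0∞, Measurable W ∧
        (∀ t, volume ((fun x : V => f x i) '' (K ∩ {x | x k = t})) ≤ W t) ∧
        ∫⁻ t, W t ≤ CM * (C * (∫⁻ z in N, ‖G z‖ₑ ^ p) ^ (1 / p)) := by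
  have hp0 : 0 < p := by linarith
  have hp1 : 0 < p - 1 := by linarith
  have hs0 : 0 < (2 * p - 3) / (p - 1) := by
    apply div_pos _ hp1; linarith
  obtain ⟨C, hCt, hcov⟩ := hC _ K hs0 hfin
  refine ⟨C ^ ((p - 1) / p), ENNReal.rpow_ne_top_of_nonneg (by positivity) hCt, ?_⟩
  intro N hN hKN hNΩ
  obtain ⟨ι, hι, c, ρ, hρ, hcN, hKc, hdis, hsum⟩ := hcov N hN hKN
  have hcN' : ∀ j, closedBall (c j) (ρ j) ⊆ N := fun j => by
    rw [← cube_eq (hρ j)]; exact hcN j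
  choose U hUm hU hUi using fun j => hM (c j) (ρ j) (hρ j) ((hcN' j).trans hNΩ)
  refine ⟨fun t => ∑' j, U j t, Measurable.tsum hUm, ?_, ?_⟩
  · intro t
    have h1 : (fun x : V => f x i) '' (K ∩ {x | x k = t}) ⊆
        ⋃ j, (fun x : V => f x i) '' (closedBall (c j) (ρ j) ∩ {x | x k = t}) := by
      rintro _ ⟨x, ⟨hx, hxt⟩, rfl⟩
      obtain ⟨j, hj⟩ := mem_iUnion.1 (hKc hx)
      rw [cube_eq (hρ j)] at hj
      exact mem_iUnion.2 ⟨j, x, ⟨hj, hxt⟩, rfl⟩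
    refine (measure_mono h1).trans ((measure_iUnion_le _).trans (ENNReal.tsum_le_tsum fun j => ?_))
    refine (Real.volume_le_diam _).trans (Metric.ediam_le ?_)
    rintro _ ⟨x, ⟨hx, hxt⟩, rfl⟩ _ ⟨y, ⟨hy, hyt⟩, rfl⟩
    have hxt' : x k = t := hxt
    have hyt' : y k = t := hyt
    have h3 := hU j x hx y hy (hxt'.trans hyt'.symm)
    rw [hxt'] at h3
    refine le_trans ?_ h3
    rw [edist_dist, ← ofReal_norm]
    apply ENNReal.ofReal_le_ofReal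
    rw [Real.dist_eq]
    exact norm_le_pi_norm (f x - f y) i
  · set ν : ι → ℝ≥0∞ := fun j => ∫⁻ z in cube (c j) (ρ j), ‖G z‖ₑ ^ p with hν
    have h6 : ∑' j, ν j ≤ ∫⁻ z in N, ‖G z‖ₑ ^ p := by
      rw [hν, ← lintegral_iUnion₀ (fun i => (isCompact_cube (hρ i)).measurableSet.nullMeasurableSet)
        (fun i j hij => hdis i j hij)]
      exact lintegral_mono_set (iUnion_subset hcN)
    have h7 : ∑' j, ENNReal.ofReal (ρ j) ^ ((2 * p - 3) / (p - 1)) ≤ C := by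
      refine le_trans (le_of_eq ?_) hsum
      exact tsum_congr fun i => ENNReal.ofReal_rpow_of_pos (hρ i)
    calc ∫⁻ t, ∑' j, U j t = ∑' j, ∫⁻ t, U j t := lintegral_tsum fun j => (hUm j).aemeasurable
      _ ≤ ∑' j, CM * (ENNReal.ofReal (ρ j) ^ (2 - 3 / p) * ν j ^ (1 / p)) := by
          refine ENNReal.tsum_le_tsum fun j => (hUi j).trans (le_of_eq ?_)
          have e : ν j = ∫⁻ z in closedBall (c j) (ρ j), ‖G z‖ₑ ^ p := by
            simp only [hν, cube_eq (hρ j)]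
          rw [e, ENNReal.ofReal_rpow_of_pos (hρ j), mul_assoc]
      _ = CM * ∑' j, (ENNReal.ofReal (ρ j) ^ (2 - 3 / p) * ν j ^ (1 / p)) :=
          ENNReal.tsum_mul_left
      _ ≤ CM * ((∑' j, ENNReal.ofReal (ρ j) ^ ((2 * p - 3) / (p - 1))) ^ ((p - 1) / p) *
            (∑' j, ν j) ^ (1 / p)) := by
          gcongr
          exact tsum_holder hp _ _
      _ ≤ CM * (C ^ ((p - 1) / p) * (∫⁻ z in N, ‖G z‖ₑ ^ p) ^ (1 / p)) := by
          gcongr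

/-- almost every slice of a set of finite measure has an image with null projections -/
theorem image_null (hS : SpecSliceOsc) (hC : SpecCover) {p : ℝ} (hp : 2 < p) {Ω K : Set V}
    {f : V → V} {F : V → Mat} (hΩ : St.IsBoundedDomain Ω) (hF : St.IsSobolev p Ω f F)
    (hf : ContinuousOn f Ω) (hK : K ⊆ Ω)
    (hfin : μH[(2 * p - 3) / (p - 1)] K < ⊤) (k i : Fin 3) :
    ∀ᵐ t : ℝ, volume ((fun x : V => f x i) '' (K ∩ {x | x k = t})) = 0 := by
  have hp0 : 0 < p := by linarith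
  have hp1 : 0 < p - 1 := by linarith
  have hp1' : 1 ≤ p := by linarith
  have hv : volume Ω ≠ ⊤ := PK.volume_ne_top_of_domain hΩ
  have hs3 : (2 * p - 3) / (p - 1) < 3 := by
    rw [div_lt_iff₀ hp1]; linarith
  obtain ⟨CM, hCM, hMor⟩ := hS p hp
  have hM := hMor Ω f (fun z => cl (F z)) hΩ.1 hf (PK.IsSob.locallyIntegrableOn_cl hp1' hv hF)
    (PK.IsSob.weakDeriv hp1' hv hF) k
  obtain ⟨C, hCt, hmain⟩ := image_le hC hp hM hfin i
  -- `K` is a null set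
  have hK0 : volume K = 0 := by
    have h2 : (μH[(3 : ℝ)] : Measure V) = volume := by
      have := hausdorffMeasure_pi_real (ι := Fin 3)
      rwa [Fintype.card_fin] at this
    rw [← h2]
    exact (Measure.hausdorffMeasure_zero_or_top hs3 K).resolve_right hfin.ne
  have hFt : ∫⁻ z in Ω, ‖cl (F z)‖ₑ ^ p ≠ ⊤ := PK.IsSob.lintegral_ne_top (by linarith) hF
  have hstep : ∀ n : ℕ, ∃ W : ℝ → ℝ≥0∞, Measurable W ∧
      (∀ t, volume ((fun x : V => f x i) '' (K ∩ {x | x k = t})) ≤ W t) ∧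
      ∫⁻ t, W t ≤ ((n : ℝ≥0∞) + 1)⁻¹ := by
    intro n
    have hη : (0 : ℝ≥0∞) < ((n : ℝ≥0∞) + 1)⁻¹ := by
      rw [ENNReal.inv_pos]
      exact ENNReal.add_ne_top.2 ⟨ENNReal.natCast_ne_top n, ENNReal.one_ne_top⟩
    set B := CM * C with hB
    have hBt : B ≠ ⊤ := ENNReal.mul_ne_top hCM hCt
    have hlim : Tendsto (fun t : ℝ≥0∞ => B * t ^ (1 / p)) (𝓝 0) (𝓝 (B * 0 ^ (1 / p))) :=
      ENNReal.Tendsto.const_mul ((ENNReal.continuous_rpow_const).tendsto 0) (Or.inr hBt)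
    rw [ENNReal.zero_rpow_of_pos (by positivity), mul_zero] at hlim
    obtain ⟨t, ht, ht0⟩ : ∃ t : ℝ≥0∞, B * t ^ (1 / p) < ((n : ℝ≥0∞) + 1)⁻¹ ∧ 0 < t := by
      have h1 : ∀ᶠ t in 𝓝 (0 : ℝ≥0∞), B * t ^ (1 / p) < ((n : ℝ≥0∞) + 1)⁻¹ :=
        hlim.eventually (gt_mem_nhds hη)
      have h2 : ∀ᶠ t in 𝓝[>] (0 : ℝ≥0∞), B * t ^ (1 / p) < ((n : ℝ≥0∞) + 1)⁻¹ ∧ 0 < t :=
        (h1.filter_mono nhdsWithin_le_nhds).and self_mem_nhdsWithin
      exact h2.exists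
    obtain ⟨δ, hδ, hδt⟩ := exists_pos_setLIntegral_lt_of_measure_lt hFt ht0.ne'
    obtain ⟨N, hKN, hNo, hNδ⟩ := Set.exists_isOpen_lt_of_lt (μ := (volume : Measure V)) K δ
      (by rw [hK0]; exact hδ)
    obtain ⟨W, hW1, hW2, hW3⟩ := hmain (N ∩ Ω) (hNo.inter hΩ.1) (subset_inter hKN hK)
      inter_subset_right
    refine ⟨W, hW1, hW2, hW3.trans ?_⟩
    have h8 := hδt (N ∩ Ω) (lt_of_le_of_lt ((Measure.restrict_apply_le _ _).trans
      (measure_mono inter_subset_left)) hNδ)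
    rw [Measure.restrict_restrict (hNo.inter hΩ.1).measurableSet, inter_assoc, inter_self] at h8
    calc CM * (C * (∫⁻ z in N ∩ Ω, ‖cl (F z)‖ₑ ^ p) ^ (1 / p))
        = B * (∫⁻ z in N ∩ Ω, ‖cl (F z)‖ₑ ^ p) ^ (1 / p) := by rw [hB, mul_assoc]
      _ ≤ B * t ^ (1 / p) := by gcongr
      _ ≤ _ := ht.le
  choose W hW1 hW2 hW3 using hstep
  have hlim0 : Tendsto (fun m : ℕ => ((m : ℝ≥0∞) + 1)⁻¹) atTop (𝓝 0) := by
    have h := ENNReal.tendsto_inv_nat_nhds_zero.comp (tendsto_add_atTop_nat 1)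
    refine h.congr fun m => ?_
    simp
  have h0 : ∫⁻ t, ⨅ n, W n t = 0 := by
    refine le_antisymm (ge_of_tendsto' hlim0 fun n => ?_) bot_le
    exact (lintegral_mono fun t => iInf_le _ n).trans (hW3 n)
  rw [lintegral_eq_zero_iff (Measurable.iInf hW1)] at h0
  filter_upwards [h0] with t ht
  refine le_antisymm ?_ bot_le
  refine (le_iInf fun n => hW2 n t).trans (le_of_eq ht)

/-- **Row Z3** from Z3a -/
theorem specDim_of (hS : SpecSliceOsc) (hC : SpecCover) : SpecDim := by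
  intro p Ω K f F Kn hp hΩ hF hf hKΩ hK hKn k
  have hp1 : 0 < p - 1 := by linarith
  have hs2 : (2 * p - 3) / (p - 1) < 2 := by
    rw [div_lt_iff₀ hp1]; linarith
  have hn : ∀ n, μH[2] (Kn n) = 0 := fun n =>
    (Measure.hausdorffMeasure_zero_or_top hs2 (Kn n)).resolve_right (hKn n)
  have hK2 : μH[2] K = 0 := measure_mono_null hK (measure_iUnion_null hn)
  have h1 := RT.H712.specArea Ω K id hΩ.1 hKΩ hK2
    (fun x _ => ⟨1, univ, univ_mem, LipschitzWith.id.lipschitzOnWith⟩) k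
  have h2 : ∀ᵐ t : ℝ, ∀ n, ∀ i, volume ((fun x : V => f x i) '' ((K ∩ Kn n) ∩ {x | x k = t})) = 0 :=
    ae_all_iff.2 fun n => ae_all_iff.2 fun i => image_null hS hC hp hΩ hF hf
      (inter_subset_left.trans hKΩ)
      (lt_of_le_of_lt (measure_mono inter_subset_right) (lt_top_iff_ne_top.2 (hKn n))) k i
  filter_upwards [h1, h2] with t ht1 ht2
  refine ⟨ht1.1, fun i => ?_⟩
  have h3 : (fun x : V => f x i) '' (K ∩ {x | x k = t}) ⊆
      ⋃ n, (fun x : V => f x i) '' ((K ∩ Kn n) ∩ {x | x k = t}) := by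
    rintro _ ⟨x, ⟨hx, hxt⟩, rfl⟩
    obtain ⟨n, hxn⟩ := mem_iUnion.1 (hK hx)
    exact mem_iUnion.2 ⟨n, x, ⟨⟨hx, hxn⟩, hxt⟩, rfl⟩
  exact measure_mono_null h3 (measure_iUnion_null fun n => ht2 n i)

end Vale.Agent.P073.H146
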